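import Vale.Agent.Lib.P032.Padic

namespace Vale.Agent.Results.P032.A_PadicFields

open Vale.Agent.Lib.P032

/-- `c` is a proper colouring of the unit-distance graph on the points of the Euclidean plane both
of whose coordinates lie in the subfield `K` of the reals. -/
def ProperOn (K : Subfield ℝ) {C : Type} (c : EuclideanSpace ℝ (Fin 2) → C) : Prop :=
  ∀ x y : EuclideanSpace ℝ (Fin 2), (∀ i, x i ∈ K) → (∀ i, y i ∈ K) → dist x y = 1 → c x ≠ c y

/-- Let `K` be a subfield of the reals that embeds into the field of `p`-adic numbers.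
(1) If `-1` is not a square modulo `p`, every proper colouring of the unit-distance graph of the
plane over `ZMod p` yields a proper colouring, with the same colours, of the unit-distance graph
on `K^2`.
(2) For `p = 2` two colours suffice for `K^2`; for `p = 3, 7, 11, 19` the numbers `3, 4, 5, 5` of
colours suffice. -/
theorem result (K : Subfield ℝ) (p : ℕ) [Fact p.Prime] (ι : K →+* ℚ_[p]) :
    (∀ (C : Type) (col : ZMod p → ZMod p → C), (∀ s : ZMod p, 1 + s ^ 2 ≠ 0) →
      (∀ x y dx dy : ZMod p, dx ^ 2 + dy ^ 2 = 1 → col (x + dx) (y + dy) ≠ col x y) →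
      ∃ c : EuclideanSpace ℝ (Fin 2) → C, ProperOn K c) ∧
    (p = 2 → ∃ c : EuclideanSpace ℝ (Fin 2) → Fin 2, ProperOn K c) ∧
    (p = 3 → ∃ c : EuclideanSpace ℝ (Fin 2) → Fin 3, ProperOn K c) ∧
    (p = 7 → ∃ c : EuclideanSpace ℝ (Fin 2) → Fin 4, ProperOn K c) ∧
    (p = 11 → ∃ c : EuclideanSpace ℝ (Fin 2) → Fin 5, ProperOn K c) ∧
    (p = 19 → ∃ c : EuclideanSpace ℝ (Fin 2) → Fin 5, ProperOn K c) := by
  refine ⟨fun C col hk hcol => odd_colours p K ι hk col hcol, ?_, ?_, ?_, ?_, ?_⟩
  · intro h
    subst h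
    exact two_colours K ι
  · intro h
    subst h
    exact odd_colours 3 K ι aniso3 col3 col3_proper
  · intro h
    subst h
    exact odd_colours 7 K ι aniso7 col7 col7_proper
  · intro h
    subst h
    exact odd_colours 11 K ι zmod_aniso col col_proper
  · intro h
    subst h
    exact odd_colours 19 K ι aniso19 col19 col19_proper

end Vale.Agent.Results.P032.A_PadicFields
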