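import Vale.Agent.Results.P032.A_Transfer
import Vale.Agent.Results.P032.A_PadicFields

namespace Vale.Agent.Results.P032.A_All

/-- `c` is a proper colouring of the unit-distance graph on the points of the Euclidean plane both
of whose coordinates lie in the subfield `K` of the reals. -/
def ProperOn (K : Subfield ℝ) {C : Type} (c : EuclideanSpace ℝ (Fin 2) → C) : Prop :=
  ∀ x y : EuclideanSpace ℝ (Fin 2), (∀ i, x i ∈ K) → (∀ i, y i ∈ K) → dist x y = 1 → c x ≠ c y

/-- (1) Transfer of colourings from the plane over the residue field `k` of a valuation ring `O` of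
a real field `K`, when `-1` is not a square in `k`.
(2) If `O` admits a ring morphism to the field with `3`, `7`, `11`, `19` elements, then
`3`, `4`, `5`, `5` colours suffice for `K^2`.
(3) Five colours suffice for the field generated by `√11` and all `√n`, `n` a natural number that
is a nonzero square modulo `11`.
(4) If `K` embeds into the field of `p`-adic numbers, then `2`, `3`, `4`, `5`, `5` colours suffice
for `K^2` when `p = 2, 3, 7, 11, 19`. -/
theorem result :
    (∀ (K : Subfield ℝ) (O : ValuationSubring K) (C : Type)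
      (col : IsLocalRing.ResidueField O → IsLocalRing.ResidueField O → C),
      (∀ s : IsLocalRing.ResidueField O, 1 + s ^ 2 ≠ 0) →
      (∀ x y dx dy : IsLocalRing.ResidueField O, dx ^ 2 + dy ^ 2 = 1 →
        col (x + dx) (y + dy) ≠ col x y) →
      ∃ c : EuclideanSpace ℝ (Fin 2) → C, ProperOn K c) ∧
    (∀ (K : Subfield ℝ) (O : ValuationSubring K),
      (Nonempty (O →+* ZMod 3) → ∃ c : EuclideanSpace ℝ (Fin 2) → Fin 3, ProperOn K c) ∧
      (Nonempty (O →+* ZMod 7) → ∃ c : EuclideanSpace ℝ (Fin 2) → Fin 4, ProperOn K c) ∧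
      (Nonempty (O →+* ZMod 11) → ∃ c : EuclideanSpace ℝ (Fin 2) → Fin 5, ProperOn K c) ∧
      (Nonempty (O →+* ZMod 19) → ∃ c : EuclideanSpace ℝ (Fin 2) → Fin 5, ProperOn K c)) ∧
    (∃ c : EuclideanSpace ℝ (Fin 2) → Fin 5, ProperOn (IntermediateField.adjoin ℚ
        {s : ℝ | ∃ n : ℕ, s = √n ∧ (n = 11 ∨ n % 11 = 1 ∨ n % 11 = 3 ∨ n % 11 = 4 ∨ n % 11 = 5 ∨
          n % 11 = 9)}).toSubfield c) ∧
    (∀ (K : Subfield ℝ) (p : ℕ) [Fact p.Prime] (_ : K →+* ℚ_[p]),
      (p = 2 → ∃ c : EuclideanSpace ℝ (Fin 2) → Fin 2, ProperOn K c) ∧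
      (p = 3 → ∃ c : EuclideanSpace ℝ (Fin 2) → Fin 3, ProperOn K c) ∧
      (p = 7 → ∃ c : EuclideanSpace ℝ (Fin 2) → Fin 4, ProperOn K c) ∧
      (p = 11 → ∃ c : EuclideanSpace ℝ (Fin 2) → Fin 5, ProperOn K c) ∧
      (p = 19 → ∃ c : EuclideanSpace ℝ (Fin 2) → Fin 5, ProperOn K c)) :=
  ⟨Vale.Agent.Results.P032.A_Transfer.result.1, Vale.Agent.Results.P032.A_Transfer.result.2.1,
    Vale.Agent.Results.P032.A_Transfer.result.2.2,
    fun K p _ ι => (Vale.Agent.Results.P032.A_PadicFields.result K p ι).2⟩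

end Vale.Agent.Results.P032.A_All
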