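import Vale.Agent.Lib.P032.Eleven

namespace Vale.Agent.Results.P032.QuadFieldInfinite5

/-- Let `K` be the (infinite-degree) real field generated over `ℚ` by `√11` and by all `√n`, `n` a
natural number that is a nonzero square modulo `11` (i.e. `n ≡ 1, 3, 4, 5, 9 mod 11`).
The unit-distance graph on the points of the Euclidean plane with both coordinates in `K`
is properly 5-colourable. -/
theorem result :
    ∃ c : EuclideanSpace ℝ (Fin 2) → Fin 5, ∀ x y : EuclideanSpace ℝ (Fin 2),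
      (∀ i, x i ∈ IntermediateField.adjoin ℚ
        {s : ℝ | ∃ n : ℕ, s = √n ∧ (n = 11 ∨ n % 11 = 1 ∨ n % 11 = 3 ∨ n % 11 = 4 ∨ n % 11 = 5 ∨
          n % 11 = 9)}) →
      (∀ i, y i ∈ IntermediateField.adjoin ℚ
        {s : ℝ | ∃ n : ℕ, s = √n ∧ (n = 11 ∨ n % 11 = 1 ∨ n % 11 = 3 ∨ n % 11 = 4 ∨ n % 11 = 5 ∨
          n % 11 = 9)}) →
      dist x y = 1 → c x ≠ c y := by
  apply Vale.Agent.Lib.P032.colouring_of_adjoin
  rintro s ⟨n, rfl, hn⟩
  refine ⟨n, Real.sq_sqrt (Nat.cast_nonneg n), ?_⟩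
  have key : ∀ k : ℕ, n % 11 = k → (n : ZMod 11) = (k : ZMod 11) := by
    intro k hk
    rw [← hk, ZMod.natCast_mod]
  rcases hn with h | h | h | h | h | h
  · exact Or.inl h
  · exact Or.inr ⟨1, by decide, by rw [key _ h]; decide⟩
  · exact Or.inr ⟨5, by decide, by rw [key _ h]; decide⟩
  · exact Or.inr ⟨2, by decide, by rw [key _ h]; decide⟩
  · exact Or.inr ⟨4, by decide, by rw [key _ h]; decide⟩
  · exact Or.inr ⟨3, by decide, by rw [key _ h]; decide⟩

end Vale.Agent.Results.P032.QuadFieldInfinite5
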