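import Vale.Agent.Lib.P032.Tables
import Vale.Agent.Results.P032.QuadFieldInfinite5

namespace Vale.Agent.Results.P032.A_Transfer

open Vale.Agent.Lib.P032

/-- `c` is a proper colouring of the unit-distance graph on the points of the Euclidean plane both
of whose coordinates lie in the subfield `K` of the reals. -/
def ProperOn (K : Subfield ℝ) {C : Type} (c : EuclideanSpace ℝ (Fin 2) → C) : Prop :=
  ∀ x y : EuclideanSpace ℝ (Fin 2), (∀ i, x i ∈ K) → (∀ i, y i ∈ K) → dist x y = 1 → c x ≠ c y

/-- (1) Transfer principle: let `O` be a valuation ring of a subfield `K` of the reals such that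
`-1` is not a square in the residue field `k` of `O`. Every proper colouring of the unit-distance
graph of the plane over `k` (points joined when the difference `(dx, dy)` has `dx^2 + dy^2 = 1`)
yields a proper colouring, with the same set of colours, of the unit-distance graph on `K^2`.
(2) If `O` admits a ring morphism to the field with `3`, `7`, `11`, `19` elements, then
`3`, `4`, `5`, `5` colours suffice for `K^2`.
(3) Five colours suffice for the field generated by `√11` and all `√n`, `n` a natural number that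
is a nonzero square modulo `11`. -/
theorem result :
    (∀ (K : Subfield ℝ) (O : ValuationSubring K) (C : Type)
      (col : IsLocalRing.ResidueField O → IsLocalRing.ResidueField O → C),
      (∀ s : IsLocalRing.ResidueField O, 1 + s ^ 2 ≠ 0) →
      (∀ x y dx dy : IsLocalRing.ResidueField O, dx ^ 2 + dy ^ 2 = 1 →
        col (x + dx) (y + dy) ≠ col x y) →
      ∃ c : EuclideanSpace ℝ (Fin 2) → C, ProperOn K c) ∧
    (∀ (K : Subfield ℝ) (O : ValuationSubring K),
      (Nonempty (O →+* ZMod 3) → ∃ c : EuclideanSpace ℝ (Fin 2) → Fin 3, ProperOn K c) ∧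
      (Nonempty (O →+* ZMod 7) → ∃ c : EuclideanSpace ℝ (Fin 2) → Fin 4, ProperOn K c) ∧
      (Nonempty (O →+* ZMod 11) → ∃ c : EuclideanSpace ℝ (Fin 2) → Fin 5, ProperOn K c) ∧
      (Nonempty (O →+* ZMod 19) → ∃ c : EuclideanSpace ℝ (Fin 2) → Fin 5, ProperOn K c)) ∧
    (∃ c : EuclideanSpace ℝ (Fin 2) → Fin 5, ProperOn (IntermediateField.adjoin ℚ
        {s : ℝ | ∃ n : ℕ, s = √n ∧ (n = 11 ∨ n % 11 = 1 ∨ n % 11 = 3 ∨ n % 11 = 4 ∨ n % 11 = 5 ∨
          n % 11 = 9)}).toSubfield c) := by
  refine ⟨fun K O C col hk hcol => ?_, fun K O => ⟨?_, ?_, ?_, ?_⟩,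
    Vale.Agent.Results.P032.QuadFieldInfinite5.result⟩
  · refine colouring_of_valuation K O (IsLocalRing.residue O) (fun z hz => ?_) hk col hcol
    exact (IsLocalRing.residue_eq_zero_iff z).mpr ((IsLocalRing.mem_maximalIdeal z).mpr hz)
  · rintro ⟨φ⟩
    exact colouring_of_valuation K O φ (kills_nonunits φ) aniso3 col3 col3_proper
  · rintro ⟨φ⟩
    exact colouring_of_valuation K O φ (kills_nonunits φ) aniso7 col7 col7_proper
  · rintro ⟨φ⟩
    exact colouring_of_valuation K O φ (kills_nonunits φ) zmod_aniso col col_proper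
  · rintro ⟨φ⟩
    exact colouring_of_valuation K O φ (kills_nonunits φ) aniso19 col19 col19_proper

end Vale.Agent.Results.P032.A_Transfer
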