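import Vale.Agent.Lib.P032.Eleven

namespace Vale.Agent.Results.P032.QuadField5

/-- The unit-distance graph on the points of the Euclidean plane whose two coordinates lie in the
real number field `ℚ(√3, √5, √11)` is properly 5-colourable. -/
theorem result :
    ∃ c : EuclideanSpace ℝ (Fin 2) → Fin 5, ∀ x y : EuclideanSpace ℝ (Fin 2),
      (∀ i, x i ∈ IntermediateField.adjoin ℚ ({√3, √5, √11} : Set ℝ)) →
      (∀ i, y i ∈ IntermediateField.adjoin ℚ ({√3, √5, √11} : Set ℝ)) →
      dist x y = 1 → c x ≠ c y := by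
  apply Vale.Agent.Lib.P032.colouring_of_adjoin
  intro s hs
  simp only [Set.mem_insert_iff, Set.mem_singleton_iff] at hs
  rcases hs with rfl | rfl | rfl
  · exact ⟨3, by norm_num, Or.inr ⟨5, by decide, by decide⟩⟩
  · exact ⟨5, by norm_num, Or.inr ⟨4, by decide, by decide⟩⟩
  · exact ⟨11, by norm_num, Or.inl rfl⟩

end Vale.Agent.Results.P032.QuadField5
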